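import Vale.Agent.P162.Final
import Vale.Agent.P162.Link

namespace Vale.Agent.Results.P162.LogSquared

open Vale.Agent.P162

/-- The Thorp shuffle of `n = 2 * 2 ^ d = 2 ^ (d + 1)` cards mixes in `O ((log n) ^ 2)` shuffles. -/
theorem result : ∃ C : ℕ, ∀ d : ℕ,
    tmix (2 ^ d) ≤ C * (d + 1) ^ 2 ∧
      ∀ t : ℕ, C * (d + 1) ^ 2 ≤ t → tvDist (2 ^ d) t ≤ 1 / 4 :=
  final_of_link thorp_pass

end Vale.Agent.Results.P162.LogSquared
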