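import Vale.Agent.P162.ThMain

namespace Vale.Agent.Results.P162.LogTheta

open Vale.Agent.P162

/-- The mixing time of the Thorp shuffle of `n = 2 * 2 ^ d = 2 ^ (d + 1)` cards is of order
`log n`: `(d + 1) / 2 ≤ tmix ≤ C * (d + 1)`. -/
theorem result : ∃ C : ℕ, ∀ d : ℕ,
    d + 1 ≤ 2 * tmix (2 ^ d) ∧ tmix (2 ^ d) ≤ C * (d + 1) ∧
      ∀ t : ℕ, C * (d + 1) ≤ t → tvDist (2 ^ d) t ≤ 1 / 4 :=
  Vale.Agent.P162.Th.main

end Vale.Agent.Results.P162.LogTheta
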